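import Vale.Agent.P267M.Defs
import Vale.Agent.P278F.Osg

/-! The cover: elementary facts. -/

open Set Filter Metric
open scoped Manifold ContDiff Topology

noncomputable section

namespace Vale.Agent.P267M

open Vale.Agent.P267

set_option linter.unusedSectionVars false

variable {X M : Type} [TopologicalSpace X] [ChartedSpace C2 X] [IsManifold 𝓘(ℂ, C2) ω X]
  [TopologicalSpace M] [ChartedSpace C2 M] [IsManifold 𝓘(ℂ, C2) ω M]
  {π : M → X} {g : M ≃ₜ M} {t : M → ℝ}

private theorem base_cont {f : M → ℂ} {p : M}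
    (hf : ContinuousAt (f ∘ (chartAt C2 p).symm) (chartAt C2 p p)) : ContinuousAt f p := by
  have h1 : ContinuousAt ((f ∘ (chartAt C2 p).symm) ∘ chartAt C2 p) p :=
    hf.comp ((chartAt C2 p).continuousAt (mem_chart_source C2 p))
  refine h1.congr ?_
  filter_upwards [(chartAt C2 p).open_source.mem_nhds (mem_chart_source C2 p)] with q hq
  simp only [Function.comp_apply, (chartAt C2 p).left_inv hq]

private theorem base_succ (g : M ≃ₜ M) (k : ℤ) (p : M) : (g ^ (k + 1)) p = g ((g ^ k) p) := by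
  rw [add_comm, zpow_add, zpow_one, Homeomorph.mul_apply]

private theorem base_pred (g : M ≃ₜ M) (k : ℤ) (p : M) :
    (g ^ (k - 1)) p = g.symm ((g ^ k) p) := by
  rw [sub_eq_neg_add, zpow_add, zpow_neg_one, Homeomorph.mul_apply, Homeomorph.inv_apply]

theorem hol_iff {f : M → ℂ} {p : M} : HolAt f p ↔ ContMDiffAt 𝓘(ℂ, C2) 𝓘(ℂ, ℂ) ω f p := by
  rw [contMDiffAt_iff, contDiffWithinAt_omega_iff_analyticWithinAt]
  simp only [mfld_simps, analyticWithinAt_univ]
  exact ⟨fun hf => ⟨base_cont (AnalyticAt.continuousAt hf), hf⟩, fun hf => hf.2⟩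

theorem sm_cont {f : M → ℂ} {p : M} (h : SmAt f p) : ContinuousAt f p :=
  base_cont (Eventually.self_of_nhds h).continuousAt

theorem pi_k (h : IsCover π g t) (k : ℤ) (p : M) : π ((g ^ k) p) = π p :=
  ((h.fib p _).2 ⟨k, rfl⟩).symm

theorem t_k (h : IsCover π g t) (k : ℤ) (p : M) : t ((g ^ k) p) = t p + k := by
  induction k using Int.induction_on with
  | zero => simp
  | succ i ih => rw [base_succ, h.shift, ih]; push_cast; ring
  | pred i ih =>
    have h1 := h.shift ((g ^ (-(i : ℤ) - 1)) p)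
    rw [← base_succ, sub_add_cancel, ih] at h1
    push_cast at h1 ⊢
    linarith

theorem t_cont (h : IsCover π g t) : Continuous t := by
  refine continuous_iff_continuousAt.2 fun p => ?_
  exact Complex.continuous_re.continuousAt.comp (sm_cont (h.smooth p))

theorem t_proper [CompactSpace X] [T2Space M] (h : IsCover π g t) (a b : ℝ) :
    IsCompact (t ⁻¹' Icc a b) := by
  have : LocallyCompactSpace M := ChartedSpace.locallyCompactSpace C2 M
  have ho : IsOpenMap π := h.loc.isLocalHomeomorph.isOpenMap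
  choose s hs using h.surj
  choose V hVc hV using fun x : X => exists_compact_mem_nhds (s x)
  have hn : ∀ x ∈ (univ : Set X), π '' V x ∈ 𝓝 x := fun x _ => by
    have := ho.image_mem_nhds (hV x)
    rwa [hs] at this
  obtain ⟨F, -, hF⟩ := isCompact_univ.elim_nhds_subcover (fun x => π '' V x) hn
  have hK : IsCompact (⋃ x ∈ F, V x) := F.isCompact_biUnion fun x _ => hVc x
  obtain ⟨R, hR⟩ := (hK.image (t_cont h)).isBounded.exists_norm_le
  have hL : IsCompact (⋃ k ∈ Finset.Icc ⌊a - R⌋ ⌈b + R⌉, (g ^ k : M ≃ₜ M) '' ⋃ x ∈ F, V x) :=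
    (Finset.Icc _ _).isCompact_biUnion fun k _ => hK.image (g ^ k : M ≃ₜ M).continuous
  refine hL.of_isClosed_subset (isClosed_Icc.preimage (t_cont h)) fun q hq => ?_
  obtain ⟨x, hx, v, hv, hvq⟩ : ∃ x ∈ F, ∃ v ∈ V x, π v = π q := by
    simpa using hF (mem_univ (π q))
  obtain ⟨k, hk⟩ := (h.fib v q).1 hvq
  have hvK : v ∈ ⋃ x ∈ F, V x := mem_biUnion hx hv
  have h1 := abs_le.1 (hR _ (mem_image_of_mem t hvK))
  have h2 := t_k h k v
  rw [hk] at h2
  refine mem_biUnion (x := k) ?_ ⟨v, hvK, hk⟩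
  refine Finset.mem_coe.2 (Finset.mem_Icc.2 ⟨?_, ?_⟩)
  · have h3 : ((⌊a - R⌋ : ℤ) : ℝ) ≤ k := (Int.floor_le _).trans (by linarith [hq.1])
    exact_mod_cast h3
  · have h3 : (k : ℝ) ≤ ((⌈b + R⌉ : ℤ) : ℝ) := le_trans (by linarith [hq.2]) (Int.le_ceil _)
    exact_mod_cast h3

theorem g_hol (h : IsCover π g t) (k : ℤ) (p : M) :
    ContMDiffAt 𝓘(ℂ, C2) 𝓘(ℂ, C2) ω (g ^ k : M ≃ₜ M) p := by
  induction k using Int.induction_on with
  | zero => exact contMDiffAt_id
  | succ i ih =>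
    have e : ((g ^ ((i : ℤ) + 1) : M ≃ₜ M) : M → M) = g ∘ (g ^ (i : ℤ) : M ≃ₜ M) :=
      funext (base_succ g i)
    rw [e]
    exact (h.hol _).comp p ih
  | pred i ih =>
    have e : ((g ^ (-(i : ℤ) - 1) : M ≃ₜ M) : M → M) = g.symm ∘ (g ^ (-(i : ℤ)) : M ≃ₜ M) :=
      funext (base_pred g _)
    rw [e]
    exact (h.hol_inv _).comp p ih

theorem sec_count [CompactSpace X] [T2Space M] (h : IsCover π g t) :
    SecondCountableTopology M := by
  have : SigmaCompactSpace M := by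
    refine ⟨⟨fun m : ℕ => t ⁻¹' Icc (-(m : ℝ)) m, fun m => t_proper h _ _, ?_⟩⟩
    refine eq_univ_of_forall fun q => ?_
    obtain ⟨m, hm⟩ := exists_nat_ge |t q|
    exact mem_iUnion.2 ⟨m, abs_le.1 hm⟩
  exact ChartedSpace.secondCountable_of_sigmaCompact C2 M

end Vale.Agent.P267M
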