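import Vale.Agent.P267M.Base

/-! Small polydiscs. -/

open Set Filter Metric
open scoped Manifold ContDiff Topology

noncomputable section

namespace Vale.Agent.P267M

open Vale.Agent.P267

set_option linter.unusedSectionVars false

variable {X M : Type} [TopologicalSpace X] [ChartedSpace C2 X] [IsManifold 𝓘(ℂ, C2) ω X]
  [TopologicalSpace M] [ChartedSpace C2 M] [IsManifold 𝓘(ℂ, C2) ω M]
  {π : M → X} {g : M ≃ₜ M} {t : M → ℝ}

theorem exists_box (p : M) {V : Set M} (hV : V ∈ 𝓝 p) : ∃ e : OpenPartialHomeomorph M C2,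
    Adm e ∧ e.target = ball 0 4 ∧ p ∈ e.source ∧ e p = 0 ∧ e.source ⊆ V := by
  let c := chartAt C2 p
  have hp : p ∈ c.source := mem_chart_source C2 p
  have hW : c.target ∩ c.symm ⁻¹' V ∈ 𝓝 (c p) := by
    refine inter_mem (c.open_target.mem_nhds (c.map_source hp)) ?_
    refine (c.continuousAt_symm (c.map_source hp)).preimage_mem_nhds ?_
    rwa [c.left_inv hp]
  obtain ⟨r, hr, hb⟩ := Metric.mem_nhds_iff.1 hW
  obtain ⟨s, hs⟩ : ∃ s : ℂ, s = ((r / 4 : ℝ) : ℂ) := ⟨_, rfl⟩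
  have hs1 : ‖s‖ = r / 4 := by
    rw [hs, Complex.norm_real, Real.norm_of_nonneg (by positivity)]
  have hs0 : s ≠ 0 := norm_pos_iff.1 (by rw [hs1]; positivity)
  have c1 : ContDiff ℂ ω fun w : C2 => c p + s • w := contDiff_const.add (contDiff_id.const_smul s)
  have c2 : ContDiff ℂ ω fun z : C2 => s⁻¹ • (z - c p) := (contDiff_id.sub contDiff_const).const_smul _
  let B : C2 ≃ₜ C2 :=
    { toFun := fun w => c p + s • w
      invFun := fun z => s⁻¹ • (z - c p)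
      left_inv := fun w => by simp [smul_smul, hs0]
      right_inv := fun z => by simp [smul_smul, hs0]
      continuous_toFun := c1.continuous
      continuous_invFun := c2.continuous }
  have hB : ∀ w ∈ ball (0 : C2) 4, B w ∈ c.target ∩ c.symm ⁻¹' V := by
    intro w hw
    refine hb ?_
    rw [mem_ball_zero_iff] at hw
    change c p + s • w ∈ _
    rw [mem_ball_iff_norm, add_sub_cancel_left, norm_smul, hs1]
    nlinarith
  let f := (B.toOpenPartialHomeomorph.trans c.symm).restrOpen (ball 0 4) isOpen_ball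
  have hf : f.source = ball 0 4 :=
    Subset.antisymm inter_subset_right fun w hw => ⟨⟨mem_univ w, (hB w hw).1⟩, hw⟩
  have h0 : f.symm p = 0 := by
    change s⁻¹ • (c p - c p) = 0
    rw [sub_self, smul_zero]
  refine ⟨f.symm, fun q hq => ?_, hf, ⟨⟨hp, mem_univ _⟩, ?_⟩, h0, fun q hq => ?_⟩
  · have hq1 : q ∈ c.source := hq.1.1
    have h1 : ContMDiffAt 𝓘(ℂ, C2) 𝓘(ℂ, C2) ω c q :=
      contMDiffOn_chart.contMDiffAt (c.open_source.mem_nhds hq1)
    have h2 : ContMDiffAt 𝓘(ℂ, C2) 𝓘(ℂ, C2) ω c.symm (B (f.symm q)) :=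
      contMDiffOn_chart_symm.contMDiffAt (c.open_target.mem_nhds (hB _ hq.2).1)
    exact ⟨c2.contMDiff.contMDiffAt.comp q h1, h2.comp (f.symm q) c1.contMDiff.contMDiffAt⟩
  · change f.symm p ∈ ball (0 : C2) 4
    rw [h0]
    exact mem_ball_self (by norm_num)
  · have h1 : f (f.symm q) ∈ V := (hB _ hq.2).2
    rwa [f.right_inv hq] at h1

theorem exists_atl [CompactSpace X] [T2Space M] (h : IsCover π g t) (V : M → Set M)
    (hV : ∀ p, V p ∈ 𝓝 p) : ∃ (ι : Type) (_ : Fintype ι) (e : ι → OpenPartialHomeomorph M C2),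
      Atl t e ∧ ∀ a, ∃ p, (e a).source ⊆ V p := by
  classical
  have h1 : ∀ p, V p ∩ t ⁻¹' ball (t p) 1 ∈ 𝓝 p := fun p =>
    inter_mem (hV p) ((t_cont h).continuousAt.preimage_mem_nhds (ball_mem_nhds _ one_pos))
  choose e ha ht hp h0 hs using fun p => exists_box p (h1 p)
  have h2 : ∀ p ∈ t ⁻¹' Icc (0 : ℝ) 1, (e p).source ∩ e p ⁻¹' ball 0 1 ∈ 𝓝 p := by
    intro p _
    refine inter_mem ((e p).open_source.mem_nhds (hp p)) ?_
    refine ((e p).continuousAt (hp p)).preimage_mem_nhds ?_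
    rw [h0]
    exact ball_mem_nhds _ one_pos
  obtain ⟨T, hT, hc⟩ := (t_proper h 0 1).elim_nhds_subcover _ h2
  obtain ⟨σ⟩ : Nonempty (Fin T.card ≃ T) := ⟨T.equivFin.symm⟩
  refine ⟨Fin T.card, inferInstance, fun a => e (σ a),
    ⟨fun a => ha _, fun a => ht _, fun p p0 p1 => ?_, fun a q hq => ?_⟩,
    fun a => ⟨σ a, (hs _).trans inter_subset_left⟩⟩
  · obtain ⟨x, hx, hpx⟩ := mem_iUnion₂.1 (hc (⟨p0, p1⟩ : p ∈ t ⁻¹' Icc (0 : ℝ) 1))
    refine ⟨σ.symm ⟨x, hx⟩, ?_⟩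
    rw [σ.apply_symm_apply]
    exact ⟨hpx.1, mem_ball_zero_iff.1 hpx.2⟩
  · have h3 : |t q - t (σ a)| < 1 := (hs _ hq).2
    have h4 : t (σ a) ∈ Icc (0 : ℝ) 1 := hT _ (σ a).2
    rw [abs_lt] at h3
    rw [abs_le]
    constructor <;> linarith [h3.1, h3.2, h4.1, h4.2]

theorem exists_idx (h : IsCover π g t) {ι : Type} {e : ι → OpenPartialHomeomorph M C2}
    (he : Atl t e) : ∃ idx : M → ι × ℤ,
      (∀ p, (g ^ (idx p).2) p ∈ (e (idx p).1).source ∧ ‖e (idx p).1 ((g ^ (idx p).2) p)‖ < 1) ∧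
      ∀ p, idx (g p) = ((idx p).1, (idx p).2 - 1) := by
  have h1 : ∀ p, ∃ a, t p = Int.fract (t p) → p ∈ (e a).source ∧ ‖e a p‖ < 1 := by
    intro p
    by_cases hp : t p = Int.fract (t p)
    · obtain ⟨a, ha⟩ := he.cov p (hp ▸ Int.fract_nonneg _) (hp ▸ (Int.fract_lt_one _).le)
      exact ⟨a, fun _ => ha⟩
    · obtain ⟨a, -⟩ := he.cov ((g ^ (-⌊t p⌋)) p) (by
        rw [t_k h, Int.cast_neg, ← sub_eq_add_neg, Int.self_sub_floor]
        exact Int.fract_nonneg _) (by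
        rw [t_k h, Int.cast_neg, ← sub_eq_add_neg, Int.self_sub_floor]
        exact (Int.fract_lt_one _).le)
      exact ⟨a, fun h' => (hp h').elim⟩
  choose a ha using h1
  refine ⟨fun p => (a ((g ^ (-⌊t p⌋)) p), -⌊t p⌋), fun p => ha _ ?_, fun p => ?_⟩
  · rw [t_k h, Int.cast_neg, ← sub_eq_add_neg, Int.self_sub_floor, Int.fract_fract]
  · have h2 : -⌊t (g p)⌋ = -⌊t p⌋ - 1 := by
      rw [h.shift, Int.floor_add_one]
      ring
    have h3 : (g ^ (-⌊t p⌋ - 1)) (g p) = (g ^ (-⌊t p⌋)) p := by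
      rw [← Homeomorph.mul_apply, ← zpow_add_one, sub_add_cancel]
    simp only [h2, h3]

end Vale.Agent.P267M
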