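import Vale.Agent.P267M.Base

/-! Change of coordinates. -/

open Set Filter Metric
open scoped Manifold ContDiff Topology

noncomputable section

namespace Vale.Agent.P267M

open Vale.Agent.P267

set_option linter.unusedSectionVars false

variable {X M : Type} [TopologicalSpace X] [ChartedSpace C2 X] [IsManifold 𝓘(ℂ, C2) ω X]
  [TopologicalSpace M] [ChartedSpace C2 M] [IsManifold 𝓘(ℂ, C2) ω M]
  {π : M → X} {g : M ≃ₜ M} {t : M → ℝ}

variable {e : OpenPartialHomeomorph M C2} {p : M}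

theorem chg_chart (p : M) : Adm (chartAt C2 p) := fun _ hq =>
  ⟨contMDiffOn_chart.contMDiffAt ((chartAt C2 p).open_source.mem_nhds hq),
    contMDiffOn_chart_symm.contMDiffAt
      ((chartAt C2 p).open_target.mem_nhds ((chartAt C2 p).map_source hq))⟩

theorem chg_tr {e' : OpenPartialHomeomorph M C2} {G : M → M} (h : Adm e) (hp : p ∈ e.source)
    (h' : Adm e') (hp' : G p ∈ e'.source) (hG : ContMDiffAt 𝓘(ℂ, C2) 𝓘(ℂ, C2) ω G p) :
    AnalyticAt ℂ (e' ∘ G ∘ e.symm) (e p) ∧ (e' ∘ G ∘ e.symm) (e p) = e' (G p) ∧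
      ∀ f : M → ℂ, (f ∘ G) ∘ e.symm =ᶠ[𝓝 (e p)] (f ∘ e'.symm) ∘ e' ∘ G ∘ e.symm := by
  have k1 : ContMDiffAt 𝓘(ℂ, C2) 𝓘(ℂ, C2) ω (G ∘ e.symm) (e p) :=
    hG.comp_of_eq (h p hp).2 (e.left_inv hp)
  have k2 : (G ∘ e.symm) (e p) = G p := congrArg G (e.left_inv hp)
  refine ⟨(contMDiffAt_iff_contDiffAt.1 ((h' _ hp').1.comp_of_eq k1 k2)).analyticAt,
    congrArg e' k2, fun f => ?_⟩
  filter_upwards [k1.continuousAt.preimage_mem_nhds (e'.open_source.mem_nhds (k2 ▸ hp'))] with z hz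
  exact congrArg f (e'.left_inv hz).symm

theorem chg_hol {e' : OpenPartialHomeomorph M C2} {G : M → M} (h : Adm e) (hp : p ∈ e.source)
    (h' : Adm e') (hp' : G p ∈ e'.source) (hG : ContMDiffAt 𝓘(ℂ, C2) 𝓘(ℂ, C2) ω G p) {f : M → ℂ}
    (hf : AnalyticAt ℂ (f ∘ e'.symm) (e' (G p))) : AnalyticAt ℂ ((f ∘ G) ∘ e.symm) (e p) := by
  obtain ⟨k1, k2, k3⟩ := chg_tr h hp h' hp' hG
  exact (hf.comp_of_eq k1 k2).congr (k3 f).symm

theorem chg_sm {e' : OpenPartialHomeomorph M C2} {G : M → M} (h : Adm e) (hp : p ∈ e.source)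
    (h' : Adm e') (hp' : G p ∈ e'.source) (hG : ContMDiffAt 𝓘(ℂ, C2) 𝓘(ℂ, C2) ω G p) {f : M → ℂ}
    (hf : ∀ᶠ z in 𝓝 (e' (G p)), ContDiffAt ℝ ∞ (f ∘ e'.symm) z) :
    ∀ᶠ z in 𝓝 (e p), ContDiffAt ℝ ∞ ((f ∘ G) ∘ e.symm) z := by
  obtain ⟨k1, k2, k3⟩ := chg_tr h hp h' hp' hG
  filter_upwards [k1.continuousAt.eventually (k2 ▸ hf), k1.eventually_analyticAt,
    (k3 f).eventuallyEq_nhds] with z h1 h2 h3
  exact (h1.comp z (h2.contDiffAt.restrict_scalars ℝ)).congr_of_eventuallyEq h3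

theorem Adm.hol (h : Adm e) (hp : p ∈ e.source) (f : M → ℂ) :
    HolAt f p ↔ AnalyticAt ℂ (f ∘ e.symm) (e p) :=
  ⟨chg_hol (G := id) h hp (chg_chart p) (mem_chart_source C2 p) contMDiffAt_id,
    chg_hol (G := id) (chg_chart p) (mem_chart_source C2 p) h hp contMDiffAt_id⟩

theorem Adm.sm (h : Adm e) (hp : p ∈ e.source) (f : M → ℂ) :
    SmAt f p ↔ ∀ᶠ z in 𝓝 (e p), ContDiffAt ℝ ∞ (f ∘ e.symm) z :=
  ⟨chg_sm (G := id) h hp (chg_chart p) (mem_chart_source C2 p) contMDiffAt_id,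
    chg_sm (G := id) (chg_chart p) (mem_chart_source C2 p) h hp contMDiffAt_id⟩

theorem hol_comp {G : M → M} (hG : ContMDiffAt 𝓘(ℂ, C2) 𝓘(ℂ, C2) ω G p) {f : M → ℂ}
    (h : HolAt f (G p)) : HolAt (f ∘ G) p :=
  chg_hol (chg_chart p) (mem_chart_source C2 p) (chg_chart _) (mem_chart_source C2 _) hG h

theorem sm_comp {G : M → M} (hG : ContMDiffAt 𝓘(ℂ, C2) 𝓘(ℂ, C2) ω G p) {f : M → ℂ}
    (h : SmAt f (G p)) : SmAt (f ∘ G) p :=
  chg_sm (chg_chart p) (mem_chart_source C2 p) (chg_chart _) (mem_chart_source C2 _) hG h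

theorem hol_g (h : IsCover π g t) (f : M → ℂ) (p : M) : HolAt (f ∘ g) p ↔ HolAt f (g p) := by
  refine ⟨fun k => ?_, hol_comp (h.hol p)⟩
  have k1 := hol_comp (f := f ∘ g) (h.hol_inv (g p)) (by rwa [g.symm_apply_apply])
  rwa [Function.comp_assoc, g.self_comp_symm] at k1

theorem sm_g (h : IsCover π g t) (f : M → ℂ) (p : M) : SmAt (f ∘ g) p ↔ SmAt f (g p) := by
  refine ⟨fun k => ?_, sm_comp (h.hol p)⟩
  have k1 := sm_comp (f := f ∘ g) (h.hol_inv (g p)) (by rwa [g.symm_apply_apply])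
  rwa [Function.comp_assoc, g.self_comp_symm] at k1

theorem hol_sm {f : M → ℂ} (h : HolAt f p) : SmAt f p :=
  (AnalyticAt.eventually_analyticAt h).mono fun _ hz => hz.contDiffAt.restrict_scalars ℝ

theorem chg_tend (p : M) : Tendsto (chartAt C2 p).symm (𝓝 (chartAt C2 p p)) (𝓝 p) :=
  (chartAt C2 p).tendsto_symm (mem_chart_source C2 p)

theorem sm_congr {f f' : M → ℂ} (h : SmAt f p) (h' : f =ᶠ[𝓝 p] f') : SmAt f' p := by
  filter_upwards [h, (h'.comp_tendsto (chg_tend p)).eventuallyEq_nhds] with z h1 h2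
  exact h1.congr_of_eventuallyEq h2.symm

theorem hol_congr {f f' : M → ℂ} (h : HolAt f p) (h' : f =ᶠ[𝓝 p] f') : HolAt f' p :=
  AnalyticAt.congr h (h'.comp_tendsto (chg_tend p))

theorem sm_mul {f f' : M → ℂ} (h : SmAt f p) (h' : SmAt f' p) : SmAt (fun q => f q * f' q) p :=
  (Filter.Eventually.and h h').mono fun _ hz => hz.1.mul hz.2

theorem sm_sum {ι : Type} (W : Finset ι) {f : ι → M → ℂ} (h : ∀ a ∈ W, SmAt (f a) p) :
    SmAt (fun q => ∑ a ∈ W, f a q) p :=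
  ((eventually_all_finset W).2 h).mono fun _ hz => ContDiffAt.sum hz

theorem sm_post {f : M → ℂ} (h : SmAt f p) {u : ℂ → ℂ}
    (hu : ∀ᶠ w in 𝓝 (f p), ContDiffAt ℝ ∞ u w) : SmAt (fun q => u (f q)) p := by
  filter_upwards [h, ((sm_cont h).tendsto.comp (chg_tend p)).eventually hu] with z h1 h2
  exact ContDiffAt.comp (g := u) z h2 h1

/-- A locally finite sum over the translates. -/
theorem sm_finsum (h : IsCover π g t) {f : ℤ → M → ℂ} (hf : ∀ k, SmAt (f k) p) {R : ℝ}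
    (hb : ∀ᶠ q in 𝓝 p, ∀ k, f k q ≠ 0 → |t ((g ^ k) q)| ≤ R) :
    SmAt (fun q => ∑ᶠ k, f k q) p := by
  obtain ⟨N, hN⟩ := exists_nat_ge (R + |t p| + 1)
  refine sm_congr (sm_sum (Finset.Icc (-(N : ℤ)) N) fun k _ => hf k) ?_
  filter_upwards [hb, (t_cont h).continuousAt.preimage_mem_nhds (ball_mem_nhds (t p) one_pos)]
    with q h1 h2
  refine (finsum_eq_sum_of_support_subset _ fun k hk => ?_).symm
  have k1 := abs_le.1 (h1 k hk)
  have k2 := abs_lt.1 (show |t q - t p| < 1 from h2)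
  rw [t_k h] at k1
  have k3 : (-(N : ℤ) : ℤ) ≤ k ∧ k ≤ N := by
    constructor
    · have : ((-(N : ℤ) : ℤ) : ℝ) ≤ k := by
        push_cast
        linarith [le_abs_self (t p)]
      exact_mod_cast this
    · have : (k : ℝ) ≤ ((N : ℤ) : ℝ) := by
        push_cast
        linarith [neg_abs_le (t p)]
      exact_mod_cast this
  exact Finset.mem_coe.2 (Finset.mem_Icc.2 k3)

end Vale.Agent.P267M
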