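import Vale.Agent.P267.Defs

/-! The periodic atlas: definitions. -/

open Set Filter Metric
open scoped Manifold ContDiff Topology

noncomputable section

namespace Vale.Agent.P267M

open Vale.Agent.P267

set_option linter.unusedSectionVars false

variable {X M : Type} [TopologicalSpace X] [ChartedSpace C2 X] [IsManifold 𝓘(ℂ, C2) ω X]
  [TopologicalSpace M] [ChartedSpace C2 M] [IsManifold 𝓘(ℂ, C2) ω M]
  {π : M → X} {g : M ≃ₜ M} {t : M → ℝ}

/-- A biholomorphic chart. -/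
def Adm (e : OpenPartialHomeomorph M C2) : Prop :=
  ∀ p ∈ e.source, ContMDiffAt 𝓘(ℂ, C2) 𝓘(ℂ, C2) ω e p ∧
    ContMDiffAt 𝓘(ℂ, C2) 𝓘(ℂ, C2) ω e.symm (e p)

/-- Finitely many polydiscs that cover a fundamental domain. -/
structure Atl (t : M → ℝ) {ι : Type} (e : ι → OpenPartialHomeomorph M C2) : Prop where
  adm : ∀ a, Adm (e a)
  tgt : ∀ a, (e a).target = ball 0 4
  cov : ∀ p, 0 ≤ t p → t p ≤ 1 → ∃ a, p ∈ (e a).source ∧ ‖e a p‖ < 1
  bd : ∀ a, ∀ p ∈ (e a).source, |t p| ≤ 2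

/-- A partition of unity. -/
structure Pou (g : M ≃ₜ M) {ι : Type} [Fintype ι] (e : ι → OpenPartialHomeomorph M C2)
    (ρ : ι → M → ℝ) : Prop where
  sm : ∀ a p, SmAt (fun q => (ρ a q : ℂ)) p
  nonneg : ∀ a p, 0 ≤ ρ a p
  supp : ∀ a p, ρ a p ≠ 0 → p ∈ (e a).source ∧ ‖e a p‖ ≤ 1
  sum : ∀ p, ∑ᶠ k : ℤ, ∑ a, ρ a ((g ^ k) p) = 1

/-- The Jacobian of the projection, from the chart `e` to the preferred chart downstairs. -/
def jac (π : M → X) (e : OpenPartialHomeomorph M C2) (q : M) : ℂ :=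
  (fderiv ℂ (chartAt C2 (π q) ∘ π ∘ e.symm) (e q)).det

/-- The Jacobian of a transition map. -/
def tr (g : M ≃ₜ M) (e e' : OpenPartialHomeomorph M C2) (k : ℤ) (p : M) : ℂ :=
  (fderiv ℂ (e' ∘ (g ^ k : M ≃ₜ M) ∘ e.symm) (e p)).det

end Vale.Agent.P267M
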