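import Vale.Agent.P267M.Chg

/-! Jacobians. -/

open Set Filter Metric
open scoped Manifold ContDiff Topology

noncomputable section

namespace Vale.Agent.P267M

open Vale.Agent.P267

set_option linter.unusedSectionVars false

variable {X M : Type} [TopologicalSpace X] [ChartedSpace C2 X] [IsManifold 𝓘(ℂ, C2) ω X]
  [TopologicalSpace M] [ChartedSpace C2 M] [IsManifold 𝓘(ℂ, C2) ω M]
  {π : M → X} {g : M ≃ₜ M} {t : M → ℝ}

variable {e e' : OpenPartialHomeomorph M C2} {p : M}

theorem det_an {Φ : C2 → C2} {z : C2} (h : AnalyticAt ℂ Φ z) :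
    AnalyticAt ℂ (fun w => (fderiv ℂ Φ w).det) z := by
  have e : ∀ A : C2 →L[ℂ] C2, A.det = A (Pi.single 0 1) 0 * A (Pi.single 1 1) 1 -
      A (Pi.single 1 1) 0 * A (Pi.single 0 1) 1 := fun A => by
    rw [ContinuousLinearMap.det, ← LinearMap.det_toMatrix', Matrix.det_fin_two]
    simp
  have k : ∀ (v : C2) (j : Fin 2), AnalyticAt ℂ (fun w => fderiv ℂ Φ w v j) z := fun v j =>
    analyticAt_pi_iff.1 (((ContinuousLinearMap.apply ℂ C2 v).analyticAt _).comp h.fderiv) j
  simp only [e]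
  exact ((k _ _).mul (k _ _)).sub ((k _ _).mul (k _ _))

theorem jac_adm (x : X) : Adm (chartAt C2 x) := fun _ hy =>
  ⟨contMDiffAt_of_mem_maximalAtlas (IsManifold.chart_mem_maximalAtlas x) hy,
    contMDiffAt_symm_of_mem_maximalAtlas (IsManifold.chart_mem_maximalAtlas x)
      ((chartAt C2 x).map_source hy)⟩

theorem jac_an (he : Adm e) (hp : p ∈ e.source) {Φ : M → C2}
    (h : ContMDiffAt 𝓘(ℂ, C2) 𝓘(ℂ, C2) ω Φ p) : AnalyticAt ℂ (Φ ∘ e.symm) (e p) :=
  (h.comp_of_eq (he p hp).2 (e.left_inv hp)).contDiffAt.analyticAt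

theorem jac_pi (h : IsCover π g t) (he : Adm e) (hp : p ∈ e.source) {x : X}
    (hx : π p ∈ (chartAt C2 x).source) : AnalyticAt ℂ (chartAt C2 x ∘ π ∘ e.symm) (e p) :=
  jac_an he hp ((jac_adm x _ hx).1.comp p (h.loc p).contMDiffAt)

theorem jac_g (h : IsCover π g t) (he : Adm e) (he' : Adm e') (k : ℤ) (hp : p ∈ e.source)
    (hp' : (g ^ k) p ∈ e'.source) : AnalyticAt ℂ (e' ∘ (g ^ k : M ≃ₜ M) ∘ e.symm) (e p) :=
  jac_an he hp ((he' _ hp').1.comp p (g_hol h k p))

theorem jac_hol (he : Adm e) (hp : p ∈ e.source) {F : C2 → ℂ} (h : AnalyticAt ℂ F (e p)) :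
    HolAt (fun q => F (e q)) p :=
  (he.hol hp _).2 (h.congr ((e.eventually_right_inverse' hp).mono fun _ hz => (congrArg F hz).symm))

theorem jac_chain {A B Ψ : C2 → C2} {z w : C2} (hA : AnalyticAt ℂ A w) (hB : AnalyticAt ℂ B z)
    (hw : B z = w) (h : ∀ᶠ y in 𝓝 z, Ψ y = A (B y)) :
    (fderiv ℂ Ψ z).det = (fderiv ℂ B z).det * (fderiv ℂ A w).det := by
  subst hw
  rw [EventuallyEq.fderiv_eq (f := A ∘ B) h, fderiv_comp z hA.differentiableAt hB.differentiableAt,
    mul_comm]
  exact LinearMap.det_comp _ _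

theorem jac_tr (h : IsCover π g t) (he : Adm e) (he' : Adm e') (k : ℤ) (hp : p ∈ e.source)
    (hp' : (g ^ k) p ∈ e'.source) : jac π e p = tr g e e' k p * jac π e' ((g ^ k) p) := by
  refine jac_chain (jac_pi h he' hp' (mem_chart_source _ _)) (jac_g h he he' k hp hp')
    (by simp only [Function.comp_apply, e.left_inv hp]) ?_
  filter_upwards [((g ^ k).continuous.continuousAt.tendsto.comp (e.tendsto_symm hp)).eventually
    (e'.eventually_left_inverse hp')] with y hy
  simp only [Function.comp_apply] at hy ⊢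
  rw [hy, pi_k h, pi_k h]

theorem jac_ne (h : IsCover π g t) (he : Adm e) (hp : p ∈ e.source) : jac π e p ≠ 0 := by
  have hl := h.loc p
  have h1 := jac_chain (Ψ := id) (jac_an (jac_adm (π p)) (mem_chart_source _ _)
    ((he p hp).1.comp_of_eq hl.localInverse_contMDiffAt
      (hl.localInverse_left_inv hl.localInverse_mem_target)))
    (jac_pi h he hp (mem_chart_source _ _)) (by simp only [Function.comp_apply, e.left_inv hp]) ?_
  · rw [fderiv_id] at h1
    exact left_ne_zero_of_mul_eq_one (h1.symm.trans LinearMap.det_id)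
  filter_upwards [e.eventually_right_inverse' hp,
    (e.tendsto_symm hp).eventually hl.localInverse_eventuallyEq_left,
    (hl.contMDiffAt.continuousAt.tendsto.comp (e.tendsto_symm hp)).eventually
      ((chartAt C2 (π p)).eventually_left_inverse (mem_chart_source _ _))] with y h1 h2 h3
  simp only [Function.comp_apply, id] at h2 h3 ⊢
  rw [h3, h2, h1]

theorem tr_hol (h : IsCover π g t) (he : Adm e) (he' : Adm e') (k : ℤ) (hp : p ∈ e.source)
    (hp' : (g ^ k) p ∈ e'.source) : HolAt (tr g e e' k) p :=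
  jac_hol he hp (det_an (jac_g h he he' k hp hp'))

theorem jac_canon (h : IsCover π g t) (he : Adm e) (k : ℤ) (hp : (g ^ k) p ∈ e.source) :
    ∃ H : M → ℂ, HolAt H p ∧ H p ≠ 0 ∧
      ∀ᶠ q in 𝓝 p, jac π e ((g ^ k) q) = H q * pull π (canon X) p q := by
  refine ⟨fun q => (fderiv ℂ (chartAt C2 (π p) ∘ π ∘ e.symm) (e ((g ^ k) q))).det,
    hol_comp (g_hol h k p) (jac_hol he hp (det_an (jac_pi h he hp
      (by rw [pi_k h]; exact mem_chart_source _ _)))), ?_, ?_⟩
  · have := jac_ne h he hp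
    rwa [jac, pi_k h] at this
  filter_upwards [(g ^ k).continuous.continuousAt (e.open_source.mem_nhds hp),
    (h.loc p).contMDiffAt.continuousAt (chart_source_mem_nhds C2 (π p))] with q h1 h2
  have h3 : π ((g ^ k) q) ∈ (chartAt C2 (π p)).source := by rwa [pi_k h]
  rw [jac, pi_k h]
  refine jac_chain (jac_an (jac_adm (π p)) h2 (jac_adm (π q) _ (mem_chart_source _ _)).1)
    (jac_pi h he h1 h3) (by simp only [Function.comp_apply, e.left_inv h1, pi_k h]) ?_
  filter_upwards [((h.loc _).contMDiffAt.continuousAt.tendsto.comp (e.tendsto_symm h1)).eventually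
    ((chartAt C2 (π p)).eventually_left_inverse h3)] with y hy
  simp only [Function.comp_apply] at hy ⊢
  rw [hy]

end Vale.Agent.P267M
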