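import Vale.Agent.P267M.Chg

/-! The Levi form in another chart. -/

open Set Filter Metric
open scoped Manifold ContDiff Topology

noncomputable section

namespace Vale.Agent.P267M

open Vale.Agent.P267

set_option linter.unusedSectionVars false

variable {X M : Type} [TopologicalSpace X] [ChartedSpace C2 X] [IsManifold 𝓘(ℂ, C2) ω X]
  [TopologicalSpace M] [ChartedSpace C2 M] [IsManifold 𝓘(ℂ, C2) ω M]
  {π : M → X} {g : M ≃ₜ M} {t : M → ℝ}

theorem lev_two {F : C2 → ℝ} {Φ : C2 → C2} {z : C2} (hΦ : AnalyticAt ℂ Φ z)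
    (hF : ContDiffAt ℝ 2 F (Φ z)) (u : C2) :
    fderiv ℝ (fderiv ℝ (F ∘ Φ)) z u u =
      fderiv ℝ F (Φ z) (fderiv ℂ (fderiv ℂ Φ) z u u) +
        fderiv ℝ (fderiv ℝ F) (Φ z) (fderiv ℂ Φ z u) (fderiv ℂ Φ z u) := by
  have h1 : ∀ᶠ w in 𝓝 z, DifferentiableAt ℝ F (Φ w) :=
    hΦ.continuousAt.eventually ((hF.eventually (by simp)).mono fun y hy =>
      hy.differentiableAt two_ne_zero)
  have e : fderiv ℝ (F ∘ Φ) =ᶠ[𝓝 z] fun w => (fderiv ℝ F (Φ w)).comp
      (ContinuousLinearMap.restrictScalarsL ℂ C2 C2 ℝ ℝ (fderiv ℂ Φ w)) := by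
    filter_upwards [h1, hΦ.eventually_analyticAt] with w a b
    exact (a.hasFDerivAt.comp w (b.differentiableAt.hasFDerivAt.restrictScalars ℝ)).fderiv
  have hc := ((hF.fderiv_right (m := 1) le_rfl).differentiableAt one_ne_zero).hasFDerivAt.comp z
    (hΦ.differentiableAt.hasFDerivAt.restrictScalars ℝ)
  have hd := (ContinuousLinearMap.restrictScalarsL ℂ C2 C2 ℝ ℝ).hasFDerivAt.comp z
    (hΦ.fderiv.differentiableAt.hasFDerivAt.restrictScalars ℝ)
  rw [e.fderiv_eq]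
  exact congrArg (fun L => L u u) (hc.clm_comp hd).fderiv

theorem lev_congr {F F' : C2 → ℝ} {z : C2} (e : F =ᶠ[𝓝 z] F') (v : C2) :
    lev F z v = lev F' z v := by
  rw [lev, lev, e.fderiv.fderiv_eq]

theorem lev_comp {F : C2 → ℝ} {Φ : C2 → C2} {z : C2} (hΦ : AnalyticAt ℂ Φ z)
    (hF : ContDiffAt ℝ 2 F (Φ z)) (v : C2) :
    lev (F ∘ Φ) z v = lev F (Φ z) (fderiv ℂ Φ z v) := by
  have e : fderiv ℂ (fderiv ℂ Φ) z (Complex.I • v) (Complex.I • v) =
      -fderiv ℂ (fderiv ℂ Φ) z v v := by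
    rw [map_smul, map_smul, _root_.smul_apply, smul_smul, Complex.I_mul_I,
      neg_one_smul]
  rw [lev, lev, lev_two hΦ hF, lev_two hΦ hF, e, map_neg, map_smul (fderiv ℂ Φ z)]
  ring

theorem Adm.drift (h : IsCover π g t) {e : OpenPartialHomeomorph M C2} (he : Adm e) {z : C2}
    (hz : z ∈ e.target) : ∃ v, 0 < lev (t ∘ e.symm) z v := by
  obtain ⟨p, hp, rfl⟩ : ∃ p ∈ e.source, e p = z := ⟨_, e.map_target hz, e.right_inv hz⟩
  obtain ⟨v, hv⟩ := h.drift p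
  have c1 : (chartAt C2 p).symm (chartAt C2 p p) = p :=
    (chartAt C2 p).left_inv (mem_chart_source C2 p)
  have c2 : ContMDiffAt 𝓘(ℂ, C2) 𝓘(ℂ, C2) ω (chartAt C2 p).symm (chartAt C2 p p) :=
    contMDiffOn_chart_symm.contMDiffAt
      ((chartAt C2 p).open_target.mem_nhds (mem_chart_target C2 p))
  have hΦ : AnalyticAt ℂ (e ∘ (chartAt C2 p).symm) (chartAt C2 p p) :=
    (contMDiffAt_iff_contDiffAt.1 ((he p hp).1.comp_of_eq c2 c1)).analyticAt
  have c3 : (e ∘ (chartAt C2 p).symm) (chartAt C2 p p) = e p := congrArg e c1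
  have hF : ContDiffAt ℝ 2 (t ∘ e.symm) (e p) :=
    (Complex.reCLM.contDiff.contDiffAt.comp (e p)
      ((he.sm hp _).1 (h.smooth p)).self_of_nhds).of_le (WithTop.coe_le_coe.2 le_top)
  have ev : t ∘ (chartAt C2 p).symm =ᶠ[𝓝 (chartAt C2 p p)]
      (t ∘ e.symm) ∘ (e ∘ (chartAt C2 p).symm) := by
    have k : ∀ᶠ w in 𝓝 (chartAt C2 p p), (chartAt C2 p).symm w ∈ e.source :=
      c2.continuousAt.preimage_mem_nhds (by rw [c1]; exact e.open_source.mem_nhds hp)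
    filter_upwards [k] with w hw
    simp only [Function.comp_apply, e.left_inv hw]
  have k := (lev_congr ev v).trans (lev_comp hΦ (by rw [c3]; exact hF) v)
  rw [c3] at k
  exact ⟨_, hv.trans_eq k⟩

end Vale.Agent.P267M
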