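import Vale.Agent.P267M.Jac

/-! A smooth metric on the canonical bundle. -/

open Set Filter Metric
open scoped Manifold ContDiff Topology

noncomputable section

namespace Vale.Agent.P267M

open Vale.Agent.P267

set_option linter.unusedSectionVars false

variable {X M : Type} [TopologicalSpace X] [ChartedSpace C2 X] [IsManifold 𝓘(ℂ, C2) ω X]
  [TopologicalSpace M] [ChartedSpace C2 M] [IsManifold 𝓘(ℂ, C2) ω M]
  {π : M → X} {g : M ≃ₜ M} {t : M → ℝ}

theorem met_fin (h : IsCover π g t) {ι : Type} [Fintype ι]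
    {e : ι → OpenPartialHomeomorph M C2} (he : Atl t e) {ρ : ι → M → ℝ} (hρ : Pou g e ρ) (q : M) :
    ∃ S : Finset ℤ, ∀ k ∉ S, ∀ b, ρ b ((g ^ k) q) = 0 := by
  refine ⟨Finset.Icc ⌈-2 - t q⌉ ⌊2 - t q⌋, fun k hk b => not_not.1 fun h0 => hk ?_⟩
  have h1 := abs_le.1 (he.bd b _ (hρ.supp b _ h0).1)
  rw [t_k h] at h1
  exact Finset.mem_Icc.2 ⟨Int.ceil_le.2 (by linarith), Int.le_floor.2 (by linarith)⟩

theorem met_sum {A : Type} [Ring A] {ι : Type} [Fintype ι] {r c : ℤ → ι → A} {S : Finset ℤ}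
    (h : ∀ k ∉ S, ∀ b, r k b = 0) : ∑ᶠ k, ∑ b, r k b * c k b = ∑ k ∈ S, ∑ b, r k b * c k b :=
  finsum_eq_sum_of_support_subset _ fun k hk => not_not.1 fun h0 => hk (by simp [h k h0])

theorem met_off [T2Space M] {ι : Type} [Fintype ι] {e : ι → OpenPartialHomeomorph M C2}
    (he : Atl t e) {ρ : ι → M → ℝ} (hρ : Pou g e ρ) (b : ι) {x : M} (hx : x ∉ (e b).source) :
    ∀ᶠ y in 𝓝 x, ρ b y = 0 := by
  have h1 : closedBall (0 : C2) 1 ⊆ (e b).target :=
    he.tgt b ▸ closedBall_subset_ball (by norm_num)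
  have h2 : IsCompact ((e b).symm '' closedBall 0 1) :=
    (isCompact_closedBall _ _).image_of_continuousOn ((e b).continuousOn_symm.mono h1)
  have h3 : x ∉ (e b).symm '' closedBall 0 1 := fun ⟨z, hz, e1⟩ =>
    hx (e1 ▸ (e b).map_target (h1 hz))
  filter_upwards [h2.isClosed.isOpen_compl.mem_nhds h3] with y hy
  exact not_not.1 fun h0 => hy ⟨e b y, mem_closedBall_zero_iff.2 (hρ.supp b y h0).2,
    (e b).left_inv (hρ.supp b y h0).1⟩

theorem met_zero {p : M} : SmAt (fun _ : M => (0 : ℂ)) p :=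
  Eventually.of_forall fun _ => contDiffAt_const

theorem met_inv {w : ℂ} (hw : w ≠ 0) : ∀ᶠ z in 𝓝 w, ContDiffAt ℝ ∞ (fun z : ℂ => z⁻¹) z := by
  filter_upwards [isOpen_ne.mem_nhds hw] with z hz
  exact contDiffAt_id.inv hz

theorem met_nrm {w : ℂ} (hw : w ≠ 0) :
    ∀ᶠ z in 𝓝 w, ContDiffAt ℝ ∞ (fun z : ℂ => ((‖z‖ : ℝ) : ℂ)⁻¹) z := by
  filter_upwards [isOpen_ne.mem_nhds hw] with z hz
  exact (Complex.ofRealCLM.contDiff.contDiffAt.comp z (contDiffAt_norm ℝ hz)).inv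
    (by simpa using hz)

theorem exists_met [T2Space M] (h : IsCover π g t) {ι : Type} [Fintype ι]
    {e : ι → OpenPartialHomeomorph M C2} (he : Atl t e) {ρ : ι → M → ℝ} (hρ : Pou g e ρ) :
    ∃ m : M → ℂ, (∀ p, m p ≠ 0) ∧ (∀ (k : ℤ) p, m ((g ^ k) p) = m p) ∧
      ∀ a, ∀ p ∈ (e a).source, SmAt (fun q => (‖m q * jac π (e a) q‖ : ℂ)) p := by
  let σ : M → ℝ := fun q => ∑ᶠ k : ℤ, ∑ b, ρ b ((g ^ k) q) * ‖jac π (e b) ((g ^ k) q)‖
  have hσ : ∀ q, 0 < σ q := fun q => by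
    obtain ⟨S, hS⟩ := met_fin h he hρ q
    have h1 : ∃ k : ℤ, ∃ b, ρ b ((g ^ k) q) ≠ 0 := by
      by_contra hc
      push Not at hc
      simpa [hc] using hρ.sum q
    obtain ⟨k, b, hb⟩ := h1
    simp only [σ]
    rw [met_sum hS]
    have h2 : ∀ (k : ℤ) b, 0 ≤ ρ b ((g ^ k) q) * ‖jac π (e b) ((g ^ k) q)‖ := fun k b =>
      mul_nonneg (hρ.nonneg _ _) (norm_nonneg _)
    refine Finset.sum_pos' (fun k _ => Finset.sum_nonneg fun b _ => h2 k b)
      ⟨k, not_not.1 fun h0 => hb (hS k h0 b), Finset.sum_pos' (fun b _ => h2 k b)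
        ⟨b, Finset.mem_univ _, mul_pos ((hρ.nonneg _ _).lt_of_ne' hb)
          (norm_pos_iff.2 (jac_ne h (he.adm b) (hρ.supp b _ hb).1))⟩⟩
  refine ⟨fun q => ((σ q : ℝ) : ℂ)⁻¹, fun p => inv_ne_zero (Complex.ofReal_ne_zero.2 (hσ p).ne'),
    fun k p => ?_, fun a p hp => ?_⟩
  · have h1 : σ ((g ^ k) p) = σ p := by
      simp only [σ]
      rw [← finsum_comp_equiv (Equiv.addRight k)
        (f := fun j : ℤ => ∑ b, ρ b ((g ^ j) p) * ‖jac π (e b) ((g ^ j) p)‖)]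
      refine finsum_congr fun j => ?_
      rw [Equiv.coe_addRight, zpow_add]
      rfl
    simp only [h1]
  let τ : M → ℂ := fun q => ∑ᶠ k : ℤ, ∑ b,
    ((ρ b ((g ^ k) q) : ℝ) : ℂ) * ((‖tr g (e a) (e b) k q‖ : ℝ) : ℂ)⁻¹
  have h1 : ∀ q ∈ (e a).source, ((σ q : ℝ) : ℂ) = ‖jac π (e a) q‖ * τ q := fun q hq => by
    obtain ⟨S, hS⟩ := met_fin h he hρ q
    simp only [σ, τ]
    rw [met_sum hS, met_sum (S := S) fun k hk b => by rw [hS k hk b, Complex.ofReal_zero],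
      Finset.mul_sum, Complex.ofReal_sum]
    refine Finset.sum_congr rfl fun k _ => ?_
    rw [Finset.mul_sum, Complex.ofReal_sum]
    refine Finset.sum_congr rfl fun b _ => ?_
    by_cases h0 : ρ b ((g ^ k) q) = 0
    · simp [h0]
    have h2 := jac_tr h (he.adm a) (he.adm b) k hq (hρ.supp b _ h0).1
    have h3 : ((‖tr g (e a) (e b) k q‖ : ℝ) : ℂ) ≠ 0 := by
      have := left_ne_zero_of_mul (h2 ▸ jac_ne h (he.adm a) hq)
      simpa using this
    rw [h2, norm_mul]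
    push_cast
    field_simp
  have h2 : SmAt τ p := by
    refine sm_finsum h (R := 2) (fun k => sm_sum _ fun b _ => ?_) (Eventually.of_forall
      fun q k hk => ?_)
    · by_cases hb : (g ^ k) p ∈ (e b).source
      · refine sm_mul (sm_comp (g_hol h k p) (hρ.sm b _)) (sm_post (u := fun z : ℂ =>
          ((‖z‖ : ℝ) : ℂ)⁻¹) (hol_sm (tr_hol h (he.adm a) (he.adm b) k hp hb)) (met_nrm ?_))
        exact left_ne_zero_of_mul
          (jac_tr h (he.adm a) (he.adm b) k hp hb ▸ jac_ne h (he.adm a) hp)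
      · refine sm_congr met_zero ?_
        filter_upwards [(g ^ k).continuous.continuousAt.eventually (met_off he hρ b hb)] with q hq
        simp [hq]
    · obtain ⟨b, -, hb⟩ := Finset.exists_ne_zero_of_sum_ne_zero hk
      exact he.bd b _ (hρ.supp b _ fun h0 => hb (by simp [h0])).1
  have h3 : τ p ≠ 0 := right_ne_zero_of_mul (h1 p hp ▸ Complex.ofReal_ne_zero.2 (hσ p).ne')
  refine sm_congr (sm_post (u := fun z : ℂ => z⁻¹) h2 (met_inv h3)) ?_
  filter_upwards [(e a).open_source.mem_nhds hp] with q hq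
  have h4 : ((‖jac π (e a) q‖ : ℝ) : ℂ) ≠ 0 := by simpa using jac_ne h (he.adm a) hq
  rw [norm_mul, norm_inv, Complex.norm_real, Real.norm_of_nonneg (hσ q).le]
  push_cast
  rw [h1 q hq]
  field_simp

end Vale.Agent.P267M
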