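import Vale.Agent.P267M.Chg

/-! The periodic partition of unity. -/

open Set Filter Metric
open scoped Manifold ContDiff Topology

noncomputable section

namespace Vale.Agent.P267M

open Vale.Agent.P267

set_option linter.unusedSectionVars false

variable {X M : Type} [TopologicalSpace X] [ChartedSpace C2 X] [IsManifold 𝓘(ℂ, C2) ω X]
  [TopologicalSpace M] [ChartedSpace C2 M] [IsManifold 𝓘(ℂ, C2) ω M]
  {π : M → X} {g : M ≃ₜ M} {t : M → ℝ}

theorem exists_bump [T2Space M] {e : OpenPartialHomeomorph M C2} (he : Adm e)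
    (ht : e.target = ball 0 4) : ∃ β : M → ℝ, (∀ p, SmAt (fun q => (β q : ℂ)) p) ∧
      (∀ p, 0 ≤ β p) ∧ ∀ p, β p ≠ 0 ↔ p ∈ e.source ∧ ‖e p‖ < 1 := by
  classical
  let b : ContDiffBump (0 : C2) := ⟨1 / 2, 1, by norm_num, by norm_num⟩
  have hb : ∀ z, b z ≠ 0 ↔ ‖z‖ < 1 := fun z => by
    rw [← Function.mem_support, b.support_eq, mem_ball_zero_iff]
  have hi : ∀ p, (if p ∈ e.source then b (e p) else 0) ≠ 0 ↔ p ∈ e.source ∧ ‖e p‖ < 1 := fun p => by
    by_cases h : p ∈ e.source
    · rw [if_pos h, hb]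
      exact (and_iff_right h).symm
    · rw [if_neg h]
      exact ⟨fun a => absurd rfl a, fun a => absurd a.1 h⟩
  refine ⟨fun p => if p ∈ e.source then b (e p) else 0, fun p => ?_, fun p => ?_, hi⟩
  · by_cases h : p ∈ e.source
    · rw [he.sm h]
      filter_upwards [e.open_target.eventually_mem (e.map_source h)] with z hz
      refine (Complex.ofRealCLM.contDiff.comp (b.contDiff (n := ⊤))).contDiffAt.congr_of_eventuallyEq ?_
      filter_upwards [e.open_target.eventually_mem hz] with w hw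
      simp only [Function.comp_apply, if_pos (e.map_target hw), e.right_inv hw]
      rfl
    · have hs : closedBall (0 : C2) 1 ⊆ e.target := ht ▸ closedBall_subset_ball (by norm_num)
      have hc : IsClosed (e.symm '' closedBall 0 1) :=
        ((isCompact_closedBall _ _).image_of_continuousOn (e.continuousOn_symm.mono hs)).isClosed
      have hp : p ∉ e.symm '' closedBall 0 1 := by
        rintro ⟨z, hz, rfl⟩
        exact h (e.map_target (hs hz))
      refine sm_congr (f := fun _ => 0) (Eventually.of_forall fun _ => contDiffAt_const) ?_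
      filter_upwards [hc.isOpen_compl.mem_nhds hp] with q hq
      refine (Complex.ofReal_eq_zero.2 (not_not.1 fun a => hq ?_)).symm
      obtain ⟨a1, a2⟩ := (hi q).1 a
      exact ⟨e q, mem_closedBall_zero_iff.2 a2.le, e.left_inv a1⟩
  · by_cases h : p ∈ e.source
    · simp only [if_pos h]
      exact b.nonneg
    · simp only [if_neg h, le_refl]

theorem exists_pou [T2Space M] (h : IsCover π g t) {ι : Type} [Fintype ι]
    {e : ι → OpenPartialHomeomorph M C2} (he : Atl t e) : ∃ ρ, Pou g e ρ := by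
  choose β b1 b2 b3 using fun a => exists_bump (he.adm a) (he.tgt a)
  have hbd : ∀ q, ∑ a, β a q ≠ 0 → |t q| ≤ 2 := fun q hq => by
    obtain ⟨a, -, ha⟩ := Finset.exists_ne_zero_of_sum_ne_zero hq
    exact he.bd a q ((b3 a q).1 ha).1
  have hfin : ∀ p, (Function.support fun k : ℤ => ∑ a, β a ((g ^ k) p)).Finite := fun p => by
    refine (Set.finite_Icc ⌊-2 - t p⌋ ⌈2 - t p⌉).subset fun k hk => ?_
    have h1 := abs_le.1 (hbd _ hk)
    rw [t_k h] at h1
    exact ⟨Int.floor_le_iff.2 (by linarith [h1.1]), Int.le_ceil_iff.2 (by linarith [h1.2])⟩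
  obtain ⟨σ, hσ⟩ : ∃ σ : M → ℝ, σ = fun p => ∑ᶠ k : ℤ, ∑ a, β a ((g ^ k) p) := ⟨_, rfl⟩
  have s0 : ∀ p, 0 < σ p := fun p => by
    obtain ⟨a, ha⟩ := he.cov ((g ^ (-⌊t p⌋)) p) (by
      rw [t_k h, Int.cast_neg]
      linarith [Int.floor_le (t p)]) (by
      rw [t_k h, Int.cast_neg]
      linarith [Int.lt_floor_add_one (t p)])
    rw [hσ]
    refine lt_of_lt_of_le ?_ (single_le_finsum (-⌊t p⌋) (hfin p) fun k =>
      Finset.sum_nonneg fun a _ => b2 a _)
    exact lt_of_lt_of_le ((b2 a _).lt_of_ne' ((b3 a _).2 ha))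
      (Finset.single_le_sum (fun a _ => b2 a _) (Finset.mem_univ a))
  have s1 : ∀ (j : ℤ) p, σ ((g ^ j) p) = σ p := fun j p => by
    rw [hσ]
    refine Eq.trans ?_ (finsum_comp_equiv (Equiv.addRight j) (f := fun k : ℤ =>
      ∑ a, β a ((g ^ k) p)))
    refine finsum_congr fun k => Finset.sum_congr rfl fun a _ => congrArg _ ?_
    rw [Equiv.coe_addRight, zpow_add]
    rfl
  have s2 : ∀ p, SmAt (fun q => (σ q : ℂ)) p := fun p => by
    refine sm_congr (sm_finsum h (f := fun k q => ∑ a, (β a ((g ^ k) q) : ℂ)) (R := 2)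
      (fun k => sm_sum _ fun a _ => sm_comp (g_hol h k p) (b1 a _))
      (Eventually.of_forall fun q k hk => hbd _ fun a => hk ?_)) (Eventually.of_forall fun q => ?_)
    · exact_mod_cast a
    · rw [hσ]
      refine Eq.trans ?_ (Complex.ofRealHom.toAddMonoidHom.map_finsum (hfin q)).symm
      exact finsum_congr fun k => (Complex.ofReal_sum _ _).symm
  refine ⟨fun a p => β a p * (σ p)⁻¹, fun a p => ?_, fun a p => mul_nonneg (b2 a p)
    (inv_nonneg.2 (s0 p).le), fun a p ha => ?_, fun p => ?_⟩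
  · refine sm_congr (sm_mul (b1 a p) (sm_post (s2 p) (u := fun w => w⁻¹) ?_))
      (Eventually.of_forall fun q => ?_)
    · filter_upwards [isOpen_ne.mem_nhds (Complex.ofReal_ne_zero.2 (s0 p).ne')] with w hw
      exact contDiffAt_id.inv hw
    · simp only [Complex.ofReal_mul, Complex.ofReal_inv]
  · exact ((b3 a p).1 (left_ne_zero_of_mul ha)).imp_right le_of_lt
  · simp only [s1, ← Finset.sum_mul]
    rw [← finsum_mul _ _ , mul_inv_eq_one₀ (s0 p).ne', hσ]

end Vale.Agent.P267M
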