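import Vale.Agent.P267M.Chg

/-! Changing the identification of the fibres. -/

open Set Filter Metric
open scoped Manifold ContDiff Topology

noncomputable section

namespace Vale.Agent.P267M

open Vale.Agent.P267

set_option linter.unusedSectionVars false

variable {X M : Type} [TopologicalSpace X] [ChartedSpace C2 X] [IsManifold 𝓘(ℂ, C2) ω X]
  [TopologicalSpace M] [ChartedSpace C2 M] [IsManifold 𝓘(ℂ, C2) ω M]
  {π : M → X} {g : M ≃ₜ M} {t : M → ℝ}

/-- `k` and `k'` are the same holomorphic bundle, up to the factor `m` on the fibres. -/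
def Same (m : M → ℂ) (k k' : M → M → ℂ) : Prop :=
  ∀ p, ∃ H : M → ℂ, HolAt H p ∧ H p ≠ 0 ∧ ∀ᶠ q in 𝓝 p, k p q = m q * (H q * k' p q)

variable {m : M → ℂ} {k k' : M → M → ℂ}

theorem same_mul {f f' : M → ℂ} {p : M} (h : HolAt f p) (h' : HolAt f' p) : HolAt (f * f') p :=
  AnalyticAt.mul h h'

theorem same_inv {f : M → ℂ} {p : M} (h : HolAt f p) (h0 : f p ≠ 0) : HolAt f⁻¹ p :=
  AnalyticAt.inv h (by
    rw [(chartAt C2 p).left_inv (mem_chart_source C2 p)]
    exact h0)

theorem Same.hol (h : Same m k k') (u : M → M → ℂ) (s : M → ℂ) (p : M) :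
    HolAt ((k / u) p * s) p ↔ HolAt ((k' / u) p * (m * s)) p := by
  obtain ⟨H, hH, h0, he⟩ := h p
  constructor
  · intro h1
    refine hol_congr (same_mul (same_inv hH h0) h1) ?_
    filter_upwards [he, (sm_cont (hol_sm hH)).eventually_ne h0] with q hq hn
    simp only [Pi.mul_apply, Pi.div_apply, Pi.inv_apply, hq]
    field_simp
  · intro h1
    refine hol_congr (same_mul hH h1) ?_
    filter_upwards [he] with q hq
    simp only [Pi.mul_apply, Pi.div_apply, hq]
    ring

theorem Same.noK (h : Same m k (pull π (canon X))) (hm : ∀ p, m p ≠ 0) (hg : ∀ p, m (g p) = m p)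
    (hK : NoTwistedCanonical π g) (c : ℂ) (s : M → ℂ) (hs : Sec k s)
    (hc : ∀ p, s (g p) = c * s p) : s = 0 := by
  have h1 : m * s = 0 := by
    refine hK c (m * s) (fun p => ?_) fun p => ?_
    · have h2 := (h.hol 1 s p).1 (by rw [div_one]; exact hs p)
      rwa [div_one] at h2
    · simp only [Pi.mul_apply, hg, hc]
      ring
  funext p
  exact (mul_eq_zero.1 (congrFun h1 p)).resolve_left (hm p)

theorem Same.euler (h : Same m k k') (hm : ∀ p, m p ≠ 0) {G : M → M} (hg : ∀ p, m (G p) = m p)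
    {u : M → M → ℂ} {c : ℤ} (h1 : Euler G u k' c) : Euler G u k c := by
  let e : (M → ℂ) ≃ₗ[ℂ] (M → ℂ) :=
    { toFun := fun s => m * s
      map_add' := fun s s' => mul_add _ _ _
      map_smul' := fun z s => mul_smul_comm _ _ _
      invFun := fun s => m⁻¹ * s
      left_inv := fun s => funext fun p => inv_mul_cancel_left₀ (hm p) _
      right_inv := fun s => funext fun p => mul_inv_cancel_left₀ (hm p) _ }
  have h2 : (H0 G (k / u)).map (e : (M → ℂ) →ₗ[ℂ] (M → ℂ)) = H0 G (k' / u) := by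
    rw [H0, H0, Submodule.map_span]
    congr 1
    ext s
    constructor
    · rintro ⟨s', ⟨h3, h4⟩, rfl⟩
      refine ⟨funext fun p => ?_, fun p => (h.hol u s' p).1 (h4 p)⟩
      show m (G p) * s' (G p) = m p * s' p
      rw [hg, show s' (G p) = s' p from congrFun h3 p]
    · rintro ⟨h3, h4⟩
      have h5 : m * (m⁻¹ * s) = s := e.right_inv s
      refine ⟨m⁻¹ * s, ⟨funext fun p => ?_, fun p => (h.hol u _ p).2 ?_⟩, h5⟩
      · show (m (G p))⁻¹ * s (G p) = (m p)⁻¹ * s p
        rw [hg, show s (G p) = s p from congrFun h3 p]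
      · rw [h5]
        exact h4 p
  refine ⟨h1.1, ?_⟩
  rw [← e.finrank_map_eq (H0 G (k / u)), h2]
  exact h1.2

end Vale.Agent.P267M
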