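import Vale.Agent.P267M.Lev
import Vale.Agent.P267M.Box
import Vale.Agent.P267M.Rho
import Vale.Agent.P267M.Met
import Vale.Agent.P267M.Same

/-! The working model. -/

open Set Filter Metric
open scoped Manifold ContDiff Topology

noncomputable section

namespace Vale.Agent.P267M

open Vale.Agent.P267

set_option linter.unusedSectionVars false

variable {X M : Type} [TopologicalSpace X] [ChartedSpace C2 X] [IsManifold 𝓘(ℂ, C2) ω X]
  [TopologicalSpace M] [ChartedSpace C2 M] [IsManifold 𝓘(ℂ, C2) ω M]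
  {π : M → X} {g : M ≃ₜ M} {t : M → ℝ}

theorem fine (h : IsCover π g t) {n : ℕ} {S : Set M} {E : Fin n → M → M → ℂ}
    (hB : IsBasis π g S E) : ∃ V : M → Set M, (∀ p, V p ∈ 𝓝 p) ∧ ∀ p i (k : ℤ) (U : Set M),
      U ⊆ V p → (∀ q ∈ U, |t q| ≤ 2) → ∃ φ : M → ℂ,
        (∀ q, (g ^ k) q ∈ U → φ q ≠ 0 ∧ SmAt (φ / E i q) q) ∧
          (Disjoint ((g ^ k : M ≃ₜ M) ⁻¹' U) S → φ = 1) := by
  obtain ⟨B, hB'⟩ := hB.compact.exists_bound_of_continuousOn (t_cont h).continuousOn
  obtain ⟨c, hc⟩ := exists_nat_ge (B + 2)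
  refine ⟨fun p => {y | ∀ i, ∀ k ∈ Finset.Icc (-(c : ℤ)) c,
    E i ((g ^ (-k)) p) ((g ^ (-k)) y) ≠ 0 ∧
      SmAt (E i ((g ^ (-k)) p) / E i ((g ^ (-k)) y)) ((g ^ (-k)) y)}, fun p => ?_, ?_⟩
  · refine eventually_all.2 fun i => (eventually_all_finset _).2 fun k _ => ?_
    exact ((g ^ (-k)).continuous.tendsto p).eventually (hB.smooth i _)
  · intro p i k U hU hU'
    by_cases hd : Disjoint ((g ^ k : M ≃ₜ M) ⁻¹' U) S
    · refine ⟨1, fun q hq => ⟨one_ne_zero, ?_⟩, fun _ => rfl⟩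
      rw [hB.triv i q (disjoint_left.1 hd hq), div_one]
      exact Eventually.of_forall fun z => contDiffAt_const
    · refine ⟨E i ((g ^ (-k)) p), fun q hq => ?_, fun h' => (hd h').elim⟩
      obtain ⟨x, hx, hxS⟩ := not_disjoint_iff.1 hd
      have h1 := abs_le.1 (hU' _ hx)
      have h2 := abs_le.1 (hB' x hxS)
      have h3 := t_k h k x
      have hk : k ∈ Finset.Icc (-(c : ℤ)) c := by
        refine Finset.mem_Icc.2 ⟨?_, ?_⟩
        · have : -(c : ℝ) ≤ (k : ℝ) := by linarith [h1.1, h2.2]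
          exact_mod_cast this
        · have : (k : ℝ) ≤ c := by linarith [h1.2, h2.1]
          exact_mod_cast this
      have h4 := hU hq i k hk
      have e : (g ^ (-k)) ((g ^ k) q) = q := by
        rw [← Homeomorph.mul_apply, ← zpow_add, neg_add_cancel, zpow_zero, Homeomorph.one_apply]
      rwa [e] at h4

theorem model [CompactSpace X] [T2Space M] (h : IsCover π g t) (hK : NoTwistedCanonical π g)
    {n : ℕ} {S : Set M} {E : Fin n → M → M → ℂ} (hB : IsBasis π g S E) :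
    ∃ C : Cov M, C.g = g ∧ C.t = t ∧ C.R = 2 ∧ C.Hyp S E ∧
      ∀ i (j : C.I), ∃ φ : M → ℂ, (∀ p ∈ (C.ch j).source, φ p ≠ 0 ∧ SmAt (φ / E i p) p) ∧
        (Disjoint (C.ch j).source S → φ = 1) := by
  obtain ⟨V, hV, hV'⟩ := fine h hB
  obtain ⟨ι, _, e, he, heV⟩ := exists_atl h V hV
  obtain ⟨idx, hi, hi'⟩ := exists_idx h he
  obtain ⟨ρ, hρ⟩ := exists_pou h he
  obtain ⟨m, hm, hm', hm''⟩ := exists_met h he hρ
  let C : Cov M :=
    { g := g, t := t, ι := ι, e := e, idx := idx, ρ := ρ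
      kc := fun a q => m q * jac π (e a) q
      R := 2
      tgt := he.tgt
      idx_mem := hi
      idx_g := hi'
      hol := fun a p hp f => (he.adm a).hol hp f
      sm := fun a p hp f => (he.adm a).sm hp f
      hol_g := hol_g h
      sm_g := sm_g h
      t_sm := h.smooth
      shift := h.shift
      t_bd := he.bd
      drift := fun a z hz => (he.adm a).drift h (by rwa [he.tgt a])
      ρ_sm := hρ.sm
      ρ_nonneg := hρ.nonneg
      ρ_supp := hρ.supp
      ρ_sum := hρ.sum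
      kc_ne := fun a p hp => mul_ne_zero (hm p) (jac_ne h (he.adm a) hp)
      kc_sm := hm''
      kc_tr := fun a b k p hp hp' => by
        rw [jac_tr h (he.adm a) (he.adm b) k hp hp', hm', tr]
        ring }
  have hs : Same m C.κ (pull π (canon X)) := by
    intro p
    obtain ⟨H, h1, h2, h3⟩ := jac_canon h (he.adm (idx p).1) (idx p).2 (hi p).1
    refine ⟨H, h1, h2, h3.mono fun q hq => ?_⟩
    rw [← hq, ← hm' (idx p).2 q]
    rfl
  have hg1 : ∀ p, m (g p) = m p := fun p => by simpa using hm' 1 p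
  refine ⟨C, rfl, rfl, rfl, ⟨hs.noK hm hg1 hK, hB.compact, hB.smooth, hB.metric, hB.triv,
    fun i k => (hB.euler i k).mono fun N hN u h1 h2 h3 => hs.euler hm ?_ (hN u h1 h2 h3),
    hB.indep⟩, fun i j => ?_⟩
  · exact fun p => by simpa using hm' N p
  · obtain ⟨p, hp⟩ := heV j.1
    have e1 : (C.ch j).source = (g ^ j.2 : M ≃ₜ M) ⁻¹' (e j.1).source := by
      simp [Cov.ch, shiftCh, C]
    rw [e1]
    exact hV' p i j.2 _ hp (he.bd j.1)

end Vale.Agent.P267M
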